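import Vale.Agent.P125.Main

namespace Vale.Agent.Results.P125.SmallConstant

open Vale.Agent.P125

theorem result {X : Type*} [NormedAddCommGroup X] [NormedSpace ℝ X]
    {p K : ℝ} (hp : 0 < p) (hK : 0 ≤ K) (hKp : K ^ p < (1 + 2 ^ p) / 4)
    (h : HasMarkovTypeWith X p K) (Y : Type*) [NormedAddCommGroup Y] [NormedSpace ℝ Y]
    [CompleteSpace Y] (hYX : FinitelyRepresentable Y X) : IsReflexiveSpace Y :=
  superreflexive_of_small_markov hp hK hKp h Y hYX

end Vale.Agent.Results.P125.SmallConstant
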