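import Vale.Agent.Results.P125.SmallConstant

namespace Vale.Agent.Results.P125.T_LowerBoundOnConstant

open Vale.Agent.P125

/-- If some non-reflexive Banach space is finitely representable in `X` (that is, `X` is not
superreflexive in the sense of James), then every Markov type `p` constant `K` of `X` satisfies
`K ^ p ≥ (1 + 2 ^ p) / 4`. -/
theorem result {X : Type*} [NormedAddCommGroup X] [NormedSpace ℝ X]
    (Y : Type*) [NormedAddCommGroup Y] [NormedSpace ℝ Y] [CompleteSpace Y]
    (hYX : FinitelyRepresentable Y X) (hY : ¬ IsReflexiveSpace Y)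
    {p K : ℝ} (hp : 0 < p) (hK : 0 ≤ K) (h : HasMarkovTypeWith X p K) :
    (1 + 2 ^ p) / 4 ≤ K ^ p := by
  by_contra hcon
  exact hY (Vale.Agent.Results.P125.SmallConstant.result hp hK (not_le.mp hcon) h Y hYX)

end Vale.Agent.Results.P125.T_LowerBoundOnConstant
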